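import Crest.Agent.R108.Weak

/-!
# Row 108: minimal invariant sets, the Goebel–Karlovitz lemma, programs
-/

set_option autoImplicit false

open Filter Topology Set Metric

namespace Crest.Agent.R108

variable {X : Type*} [NormedAddCommGroup X] [NormedSpace ℝ X]

/-- nonempty closed convex invariant sets -/
def Inv (T : X → X) (A : Set X) : Prop :=
  A.Nonempty ∧ IsClosed A ∧ Convex ℝ A ∧ MapsTo T A A

theorem exists_minimal (hX : Refl X) {T : X → X} {C : Set X} (hC : Inv T C) {M : ℝ}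
    (hM : ∀ a ∈ C, ‖a‖ ≤ M) : ∃ K ⊆ C, Inv T K ∧ ∀ A ⊆ K, Inv T A → K ⊆ A := by
  obtain ⟨K, hKC, hK⟩ := zorn_superset_nonempty {A | A ⊆ C ∧ Inv T A} (fun c hc hch hne => by
    have : Nonempty c := hne.to_subtype
    have hdir : Directed (· ≥ ·) fun A : c => (𝓟 (A : Set X) : Filter X) := by
      intro A B
      rcases hch.total A.2 B.2 with h | h
      · exact ⟨A, le_rfl, principal_mono.2 h⟩
      · exact ⟨B, principal_mono.2 h, le_rfl⟩
    have hF : NeBot (⨅ A : c, (𝓟 (A : Set X) : Filter X)) :=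
      iInf_neBot_of_directed' hdir fun A => principal_neBot_iff.2 (hc A.2).2.1
    let U := Ultrafilter.of (⨅ A : c, (𝓟 (A : Set X) : Filter X))
    have hU : ∀ A ∈ c, ∀ᶠ v in (U : Filter X), v ∈ A := fun A hA =>
      Ultrafilter.of_le _ (mem_iInf_of_mem (⟨A, hA⟩ : c) (mem_principal_self _))
    obtain ⟨A₀, hA₀⟩ := hne
    obtain ⟨z, hz⟩ := exists_wlim hX U id M ((hU A₀ hA₀).mono fun v hv => hM v ((hc hA₀).1 hv))
    refine ⟨⋂₀ c, ⟨(sInter_subset_of_mem hA₀).trans (hc hA₀).1, ⟨z, fun A hA => ?_⟩,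
      isClosed_sInter fun A hA => (hc hA).2.2.1, convex_sInter fun A hA => (hc hA).2.2.2.1,
      fun v hv A hA => (hc hA).2.2.2.2 (hv A hA)⟩, fun A hA => sInter_subset_of_mem hA⟩
    exact hz.mem (hc hA).2.2.2.1 (hc hA).2.2.1 (hU A hA)) C ⟨Subset.rfl, hC⟩
  exact ⟨K, hKC, hK.prop.2, fun A hA hA' => hK.le_of_le ⟨hA.trans hKC, hA'⟩ hA⟩

theorem exists_afp {T : X → X} {K : Set X} (hK : Inv T K) {D : ℝ}
    (hD : ∀ a ∈ K, ∀ b ∈ K, ‖a - b‖ ≤ D) (hT : ∀ a ∈ K, ∀ b ∈ K, ‖T a - T b‖ ≤ ‖a - b‖)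
    {ε : ℝ} (hε : 0 < ε) : ∃ v ∈ K, ‖T v - v‖ ≤ ε := by
  obtain ⟨⟨p, hp⟩, -, hconv, hmaps⟩ := hK
  have hD0 : 0 ≤ D := by simpa using hD p hp p hp
  obtain ⟨t, ht0, ht1, htD⟩ : ∃ t : ℝ, 0 < t ∧ t < 1 ∧ t * D ≤ ε / 2 := by
    refine ⟨min (1 / 2) (ε / (2 * (D + 1))), by positivity, (min_le_left _ _).trans_lt (by norm_num), ?_⟩
    calc _ ≤ ε / (2 * (D + 1)) * (D + 1) := by
          gcongr
          · exact min_le_right _ _
          · linarith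
      _ = ε / 2 := by field_simp
  let u : ℕ → X := fun k => Nat.rec p (fun _ v => (1 - t) • T v + t • p) k
  have hu : ∀ k, u (k + 1) = (1 - t) • T (u k) + t • p := fun k => rfl
  have hmem : ∀ k, u k ∈ K := by
    intro k
    induction k with
    | zero => exact hp
    | succ k ih => rw [hu]; exact hconv (hmaps ih) hp (by linarith) ht0.le (by ring)
  have hgeo : ∀ k, ‖u (k + 1) - u k‖ ≤ (1 - t) ^ k * D := by
    intro k
    induction k with
    | zero => simpa using hD _ (hmem 1) _ (hmem 0)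
    | succ k ih =>
      have : u (k + 1 + 1) - u (k + 1) = (1 - t) • (T (u (k + 1)) - T (u k)) := by
        rw [hu (k + 1), smul_sub]; nth_rewrite 2 [hu k]; abel
      rw [this, norm_smul, Real.norm_of_nonneg (by linarith), pow_succ', mul_assoc]
      exact mul_le_mul_of_nonneg_left ((hT _ (hmem (k + 1)) _ (hmem k)).trans ih) (by linarith)
  have hlim : Tendsto (fun k : ℕ => (1 - t) ^ k * D) atTop (𝓝 (0 * D)) :=
    (tendsto_pow_atTop_nhds_zero_of_lt_one (by linarith) (by linarith)).mul_const D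
  rw [zero_mul] at hlim
  obtain ⟨k, hk⟩ := (hlim.eventually (gt_mem_nhds (half_pos hε))).exists
  refine ⟨u k, hmem k, ?_⟩
  have e1 : T (u k) - u k = t • (T (u k) - p) + (u (k + 1) - u k) := by
    rw [hu]; module
  have e2 : ‖t • (T (u k) - p)‖ ≤ t * D := by
    rw [norm_smul, Real.norm_of_nonneg ht0.le]
    exact mul_le_mul_of_nonneg_left (hD _ (hmaps (hmem k)) _ hp) ht0.le
  rw [e1]
  linarith [norm_add_le (t • (T (u k) - p)) (u (k + 1) - u k), hgeo k]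

theorem norm_combo_le {a b p : X} {s t r : ℝ} (hs : 0 ≤ s) (ht : 0 ≤ t) (hst : s + t = 1)
    (ha : ‖p - a‖ ≤ r) (hb : ‖p - b‖ ≤ r) : ‖p - (s • a + t • b)‖ ≤ r := by
  have : p - (s • a + t • b) = s • (p - a) + t • (p - b) := by
    have : p = (s + t) • p := by rw [hst, one_smul]
    nth_rewrite 1 [this]; module
  rw [this]
  calc _ ≤ ‖s • (p - a)‖ + ‖t • (p - b)‖ := norm_add_le _ _
    _ = s * ‖p - a‖ + t * ‖p - b‖ := by
      rw [norm_smul, norm_smul, Real.norm_of_nonneg hs, Real.norm_of_nonneg ht]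
    _ ≤ s * r + t * r := by gcongr
    _ = r := by rw [← add_mul, hst, one_mul]

/-- Goebel–Karlovitz lemma. -/
theorem goebel_karlovitz (hX : Refl X) {T : X → X} {K : Set X} (hK : Inv T K)
    (hmin : ∀ A ⊆ K, Inv T A → K ⊆ A) (hT : ∀ a ∈ K, ∀ b ∈ K, ‖T a - T b‖ ≤ ‖a - b‖)
    {M : ℝ} (hM : ∀ a ∈ K, ‖a‖ ≤ M) {D : ℝ}
    (hD : ∀ r, (∀ a ∈ K, ∀ b ∈ K, ‖a - b‖ ≤ r) → D ≤ r) {x : ℕ → X} (hx : ∀ i, x i ∈ K)
    (hafp : ∀ δ > 0, ∀ᶠ i in UU, ‖T (x i) - x i‖ ≤ δ) {p : X} (hp : p ∈ K) {δ : ℝ} (hδ : 0 < δ) :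
    ∀ᶠ i in UU, D - δ ≤ ‖x i - p‖ := by
  obtain ⟨-, hcl, hconv, hmaps⟩ := hK
  by_contra hcon
  rw [← Ultrafilter.eventually_not] at hcon
  set r := D - δ with hr
  -- step 1
  have h1 : K ⊆ {q ∈ K | ∀ η > 0, ∀ᶠ i in UU, ‖x i - q‖ ≤ r + η} := by
    refine hmin _ (sep_subset _ _) ⟨⟨p, hp, fun η hη => hcon.mono fun i hi => ?_⟩, ?_, ?_, ?_⟩
    · linarith [not_le.1 hi]
    · refine isClosed_of_closure_subset fun q hq => ⟨hcl.closure_subset_iff.2 (sep_subset _ _) hq,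
        fun η hη => ?_⟩
      obtain ⟨q', hq', hd⟩ := Metric.mem_closure_iff.1 hq (η / 2) (half_pos hη)
      filter_upwards [hq'.2 (η / 2) (half_pos hη)] with i hi
      rw [dist_comm, dist_eq_norm] at hd
      have : x i - q = (x i - q') + (q' - q) := by abel
      rw [this]
      linarith [norm_add_le (x i - q') (q' - q)]
    · intro a ha b hb s t hs ht hst
      refine ⟨hconv ha.1 hb.1 hs ht hst, fun η hη => ?_⟩
      filter_upwards [ha.2 η hη, hb.2 η hη] with i h2 h3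
      exact norm_combo_le hs ht hst h2 h3
    · intro q hq
      refine ⟨hmaps hq.1, fun η hη => ?_⟩
      filter_upwards [hq.2 (η / 2) (half_pos hη), hafp (η / 2) (half_pos hη)] with i h2 h3
      have : x i - T q = (T (x i) - T q) - (T (x i) - x i) := by abel
      rw [this]
      linarith [norm_sub_le (T (x i) - T q) (T (x i) - x i), hT _ (hx i) _ hq.1]
  -- step 2
  have ho := wlim_spec hX (fun i => hM _ (hx i))
  have hoK : wlim x ∈ K := ho.mem hconv hcl (Eventually.of_forall hx)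
  have h2 : K ⊆ {z ∈ K | ∀ q ∈ K, ‖q - z‖ ≤ r} := by
    refine hmin _ (sep_subset _ _) ⟨⟨wlim x, hoK, fun q hq => ?_⟩, ?_, ?_, ?_⟩
    · rw [norm_sub_rev]
      exact ho.norm_sub_le (IsWLim.const _ q) (h1 hq).2
    · have : {z ∈ K | ∀ q ∈ K, ‖q - z‖ ≤ r} = K ∩ ⋂ q ∈ K, {z | ‖q - z‖ ≤ r} := by
        ext z; simp
      rw [this]
      exact hcl.inter (isClosed_biInter fun q _ => isClosed_le (by fun_prop) continuous_const)
    · intro a ha b hb s t hs ht hst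
      exact ⟨hconv ha.1 hb.1 hs ht hst, fun q hq => norm_combo_le hs ht hst (ha.2 q hq) (hb.2 q hq)⟩
    · intro z hz
      refine ⟨hmaps hz.1, fun q hq => ?_⟩
      have hsub : ∀ q ∈ K, T q ∈ {q ∈ K | ‖T z - q‖ ≤ r} := fun q hq =>
        ⟨hmaps hq, (hT _ hz.1 _ hq).trans (by rw [norm_sub_rev]; exact hz.2 q hq)⟩
      have h3 : K ⊆ {q ∈ K | ‖T z - q‖ ≤ r} := by
        refine hmin _ (sep_subset _ _) ⟨⟨_, hsub p hp⟩, ?_, ?_, fun q hq => hsub q hq.1⟩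
        · exact hcl.inter (isClosed_le (f := fun q => ‖T z - q‖) (by fun_prop) continuous_const)
        · intro a ha b hb s t hs ht hst
          exact ⟨hconv ha.1 hb.1 hs ht hst, norm_combo_le hs ht hst ha.2 hb.2⟩
      rw [norm_sub_rev]; exact (h3 hq).2
  have := hD r fun a ha b hb => (h2 hb).2 a ha
  linarith

/-- programs -/
def Prog (T : X → X) (K : Set X) (H : X → X) : Prop :=
  MapsTo H K K ∧ (∀ u ∈ K, ∀ v ∈ K, ‖H u - H v‖ ≤ ‖u - v‖) ∧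
    ∃ c : ℝ, 0 ≤ c ∧ ∀ v ∈ K, ‖H v - v‖ ≤ c * ‖T v - v‖

theorem prog_dense {T : X → X} {K : Set X} (hK : Inv T K)
    (hmin : ∀ A ⊆ K, Inv T A → K ⊆ A) (hT : ∀ a ∈ K, ∀ b ∈ K, ‖T a - T b‖ ≤ ‖a - b‖)
    {o : X} (ho : o ∈ K) {w : X} (hw : w ∈ K) {ε : ℝ} (hε : 0 < ε) :
    ∃ H, Prog T K H ∧ ‖H o - w‖ ≤ ε := by
  obtain ⟨-, hcl, hconv, hmaps⟩ := hK
  let S : Set X := {v | ∃ H, Prog T K H ∧ H o = v}
  have hSK : S ⊆ K := by
    rintro _ ⟨H, hH, rfl⟩; exact hH.1 ho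
  have hcSK : closure S ⊆ K := hcl.closure_subset_iff.2 hSK
  have hS : Convex ℝ S := by
    rintro _ ⟨H, ⟨h1, h2, c, hc, h3⟩, rfl⟩ _ ⟨G, ⟨g1, g2, d, hd, g3⟩, rfl⟩ s t hs ht hst
    refine ⟨fun u => s • H u + t • G u, ⟨fun u hu => hconv (h1 hu) (g1 hu) hs ht hst,
      fun u hu v hv => ?_, c + d, by positivity, fun v hv => ?_⟩, rfl⟩
    · have : s • H u + t • G u - (s • H v + t • G v) = s • (H u - H v) + t • (G u - G v) := by
        module
      rw [this]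
      have := norm_combo_le (p := 0) (a := H u - H v) (b := G u - G v) (r := ‖u - v‖) hs ht hst
        (by rw [zero_sub, norm_neg]; exact h2 u hu v hv) (by rw [zero_sub, norm_neg]; exact g2 u hu v hv)
      rwa [zero_sub, norm_neg] at this
    · rw [norm_sub_rev]
      have := norm_nonneg (T v - v)
      refine norm_combo_le hs ht hst ?_ ?_
      · rw [norm_sub_rev]; nlinarith [h3 v hv]
      · rw [norm_sub_rev]; nlinarith [g3 v hv]
  have hTS : MapsTo T S S := by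
    rintro _ ⟨H, ⟨h1, h2, c, hc, h3⟩, rfl⟩
    refine ⟨fun u => T (H u), ⟨fun u hu => hmaps (h1 hu), fun u hu v hv =>
      (hT _ (h1 hu) _ (h1 hv)).trans (h2 u hu v hv), c + 1, by positivity, fun v hv => ?_⟩, rfl⟩
    have : T (H v) - v = (T (H v) - T v) + (T v - v) := by abel
    rw [this]
    linarith [norm_add_le (T (H v) - T v) (T v - v), hT _ (h1 hv) _ hv, h3 v hv]
  have hKS : K ⊆ closure S := by
    refine hmin _ hcSK ⟨⟨o, subset_closure ⟨id, ⟨fun u hu => hu, fun u _ v _ => le_rfl, 0, le_rfl,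
      fun v _ => by simp⟩, rfl⟩⟩, isClosed_closure, hS.closure, fun q hq => ?_⟩
    refine Metric.mem_closure_iff.2 fun η hη => ?_
    obtain ⟨q', hq', hd⟩ := Metric.mem_closure_iff.1 hq η hη
    refine ⟨T q', hTS hq', ?_⟩
    rw [dist_eq_norm] at hd ⊢
    exact (hT _ (hcSK hq) _ (hSK hq')).trans_lt hd
  obtain ⟨_, ⟨H, hH, rfl⟩, hd⟩ := Metric.mem_closure_iff.1 (hKS hw) ε hε
  exact ⟨H, hH, by rw [← dist_eq_norm, dist_comm]; exact hd.le⟩

/-- The data of a minimal invariant set without fixed point. -/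
structure Ctx (X : Type*) [NormedAddCommGroup X] [NormedSpace ℝ X] where
  K : Set X
  T : X → X
  D : ℝ
  M : ℝ
  x : ℕ → X
  refl : Refl X
  conv : Convex ℝ K
  closed : IsClosed K
  bdd : ∀ a ∈ K, ‖a‖ ≤ M
  diam : ∀ a ∈ K, ∀ b ∈ K, ‖a - b‖ ≤ D
  D_pos : 0 < D
  x_mem : ∀ i, x i ∈ K
  afp : ∀ δ > 0, ∀ᶠ i in UU, ‖T (x i) - x i‖ ≤ δ
  gk : ∀ p ∈ K, ∀ δ > 0, ∀ᶠ i in UU, D - δ ≤ ‖x i - p‖
  prog : ∀ o ∈ K, ∀ w ∈ K, ∀ ε > 0, ∃ H, Prog T K H ∧ ‖H o - w‖ ≤ ε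

theorem exists_ctx (hX : Refl X) {T : X → X} {C : Set X} (hC : Inv T C)
    (hb : Bornology.IsBounded C) (hT : ∀ a ∈ C, ∀ b ∈ C, ‖T a - T b‖ ≤ ‖a - b‖)
    (hno : ∀ x ∈ C, T x ≠ x) : Nonempty (Ctx X) := by
  obtain ⟨M, hM⟩ := hb.exists_norm_le
  obtain ⟨K, hKC, hK, hmin⟩ := exists_minimal hX hC hM
  have hTK : ∀ a ∈ K, ∀ b ∈ K, ‖T a - T b‖ ≤ ‖a - b‖ := fun a ha b hb => hT a (hKC ha) b (hKC hb)
  have hD : ∀ a ∈ K, ∀ b ∈ K, ‖a - b‖ ≤ diam K := fun a ha b hb' => by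
    rw [← dist_eq_norm]; exact dist_le_diam_of_mem (hb.subset hKC) ha hb'
  obtain ⟨p, hp⟩ := hK.1
  have hpos : 0 < diam K :=
    (norm_pos_iff.2 (sub_ne_zero.2 (hno p (hKC hp)))).trans_le (hD _ (hK.2.2.2 hp) _ hp)
  have hDm : ∀ r, (∀ a ∈ K, ∀ b ∈ K, ‖a - b‖ ≤ r) → diam K ≤ r := fun r hr =>
    diam_le_of_forall_dist_le (by simpa using hr p hp p hp) fun a ha b hb => by
      rw [dist_eq_norm]; exact hr a ha b hb
  choose x hx1 hx2 using fun n : ℕ => exists_afp hK hD hTK (Nat.one_div_pos_of_nat (α := ℝ) (n := n))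
  have hafp : ∀ δ > 0, ∀ᶠ i in UU, ‖T (x i) - x i‖ ≤ δ := fun δ hδ =>
    UU_le ((tendsto_one_div_add_atTop_nhds_zero_nat.eventually (gt_mem_nhds hδ)).mono
      fun i hi => (hx2 i).trans hi.le)
  exact ⟨⟨K, T, diam K, M, x, hX, hK.2.2.1, hK.2.1, fun a ha => hM a (hKC ha), hD, hpos, hx1, hafp,
    fun p hp δ hδ => goebel_karlovitz hX hK hmin hTK (fun a ha => hM a (hKC ha)) hDm hx1 hafp hp hδ,
    fun o ho w hw ε hε => prog_dense hK hmin hTK ho hw hε⟩⟩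

end Crest.Agent.R108
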