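import Crest.Agent.R108.Min

/-!
# Row 108: nodes and their children
-/

set_option autoImplicit false

open Filter Topology Set Metric

namespace Crest.Agent.R108

variable {X : Type*} [NormedAddCommGroup X] [NormedSpace ℝ X]

theorem cone_add {A : Set X} (hA : Convex ℝ A) {β a : ℝ} (hβ : 0 ≤ β) (ha : 0 ≤ a) {b v : X}
    (hb : b ∈ A) (hv : v ∈ A) : ∃ b' ∈ A, β • b + a • v = (β + a) • b' := by
  rcases (add_nonneg hβ ha).eq_or_lt with h | h
  · have h1 : β = 0 := by linarith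
    have h2 : a = 0 := by linarith
    exact ⟨b, hb, by simp [h1, h2]⟩
  · refine ⟨(β / (β + a)) • b + (a / (β + a)) • v,
      hA hb hv (by positivity) (by positivity) (by field_simp), ?_⟩
    rw [smul_add, smul_smul, smul_smul, mul_div_cancel₀ _ h.ne', mul_div_cancel₀ _ h.ne']

theorem cone_sum {A : Set X} (hA : Convex ℝ A) {o : X} (ho : o ∈ A) {c : ℕ → ℝ} (hc : ∀ l, 0 ≤ c l)
    {z : ℕ → X} (j : ℕ) (hz : ∀ l < j, z l ∈ A) :
    ∃ b ∈ A, ∑ l ∈ Finset.range j, c l • z l = (∑ l ∈ Finset.range j, c l) • b := by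
  induction j with
  | zero => exact ⟨o, ho, by simp⟩
  | succ j ih =>
    obtain ⟨b, hb, h⟩ := ih fun l hl => hz l (by omega)
    rw [Finset.sum_range_succ, Finset.sum_range_succ, h]
    exact cone_add hA (Finset.sum_nonneg fun l _ => hc l) (hc j) hb (hz j (by omega))

theorem pigeon {N : ℕ} {c s : ℕ → ℝ} {η B : ℝ} (hη : 0 < η) (hB : 0 ≤ B)
    (hs : ∀ j < N, s j ≤ B * c j) (hsum : 2 * η * B < ∑ j ∈ Finset.range N, s j) :
    ∃ j < N, η * (1 / 2) ^ j ≤ c j ∧ 0 ≤ s j := by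
  by_contra hcon
  push Not at hcon
  have h1 : ∀ j ∈ Finset.range N, s j ≤ η * B * (1 / 2) ^ j := by
    intro j hj
    have hj := Finset.mem_range.1 hj
    rcases le_or_gt (η * (1 / 2) ^ j) (c j) with h | h
    · exact (hcon j hj h).le.trans (by positivity)
    · calc s j ≤ B * c j := hs j hj
        _ ≤ B * (η * (1 / 2) ^ j) := by gcongr
        _ = _ := by ring
  have h2 := Finset.sum_le_sum h1
  rw [← Finset.mul_sum] at h2
  have h3 := sum_geometric_two_le N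
  have : η * B * ∑ j ∈ Finset.range N, ((1 : ℝ) / 2) ^ j ≤ η * B * 2 := by gcongr
  linarith

namespace Ctx

variable (G : Ctx X)

theorem wlim_spec {f : ℕ → X} (hf : ∀ i, f i ∈ G.K) : IsWLim UU f (wlim f) :=
  R108.wlim_spec G.refl fun i => G.bdd _ (hf i)

theorem wlim_mem {f : ℕ → X} (hf : ∀ i, f i ∈ G.K) : wlim f ∈ G.K :=
  (G.wlim_spec hf).mem G.conv G.closed (Eventually.of_forall hf)

/-- the weak limit of the approximate fixed point sequence -/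
noncomputable def o : X := wlim G.x

theorem o_mem : G.o ∈ G.K := G.wlim_mem G.x_mem

theorem gk_compact {P : Set X} (hP : IsCompact P) (hPK : P ⊆ G.K) {δ : ℝ} (hδ : 0 < δ) :
    ∀ᶠ i in UU, ∀ p ∈ P, G.D - δ ≤ ‖G.x i - p‖ := by
  obtain ⟨t, htP, ht, hcov⟩ := hP.finite_cover_balls (half_pos hδ)
  have : ∀ᶠ i in UU, ∀ q ∈ t, G.D - δ / 2 ≤ ‖G.x i - q‖ :=
    (Filter.eventually_all_finite ht).2 fun q hq => G.gk q (hPK (htP hq)) _ (half_pos hδ)
  filter_upwards [this] with i hi p hp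
  obtain ⟨q, hq, hpq⟩ := mem_iUnion₂.1 (hcov hp)
  rw [mem_ball, dist_eq_norm] at hpq
  have h1 := hi q hq
  have : G.x i - q = (G.x i - p) + (p - q) := by abel
  rw [this] at h1
  linarith [norm_add_le (G.x i - p) (p - q)]

theorem mix_mem {β : ℝ} (h0 : 0 ≤ β) (h1 : β ≤ 1) {u b : X} (hu : u ∈ G.K) (hb : b ∈ G.K) :
    (1 - β) • u + β • b ∈ G.K :=
  G.conv hu hb (by linarith) h0 (by ring)

theorem mix_mem₂ {β a : ℝ} (h0 : 0 ≤ β) (ha : 0 ≤ a) (h1 : β + a ≤ 1) {u b v : X} (hu : u ∈ G.K)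
    (hb : b ∈ G.K) (hv : v ∈ G.K) : (1 - (β + a)) • u + (β • b + a • v) ∈ G.K := by
  obtain ⟨b', hb', h⟩ := cone_add G.conv h0 ha hb hv
  rw [h]; exact G.mix_mem (by linarith) h1 hu hb'

theorem mix_dist {β a : ℝ} (h0 : 0 ≤ β) (ha : 0 ≤ a) (h1 : β + a ≤ 1) {u b w : X} (v : X)
    (hu : u ∈ G.K) (hb : b ∈ G.K) (hw : w ∈ G.K) :
    ‖(1 - (β + a)) • u + (β • b + a • v) - w‖ ≤ (1 - a) * G.D + a * ‖v - w‖ := by
  have : (1 - (β + a)) • u + (β • b + a • v) - w =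
      (1 - (β + a)) • (u - w) + β • (b - w) + a • (v - w) := by module
  rw [this]
  have e1 := norm_add₃_le (a := (1 - (β + a)) • (u - w)) (b := β • (b - w)) (c := a • (v - w))
  rw [norm_smul, norm_smul, norm_smul, Real.norm_of_nonneg h0, Real.norm_of_nonneg ha,
    Real.norm_of_nonneg (by linarith)] at e1
  have e2 := mul_le_mul_of_nonneg_left (G.diam u hu w hw) (by linarith : 0 ≤ 1 - (β + a))
  have e3 := mul_le_mul_of_nonneg_left (G.diam b hb w hw) h0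
  nlinarith

theorem avg {ι : Type*} (S : Finset ι) (p : ι → X) (hp : ∀ μ, p μ ∈ G.K) (ω : ι → ℝ)
    (hω : ∀ μ, 0 < ω μ) : ∃ R ∈ G.K, ∃ a > 0, ∀ w ∈ G.K, ∀ h : StrongDual ℝ X, ‖h‖ ≤ 1 →
      ∀ μ ∈ S, a * (G.D - h (w - p μ)) ≤ ω μ * (G.D - h (w - R)) := by
  classical
  induction S using Finset.induction_on with
  | empty => exact ⟨G.o, G.o_mem, 1, one_pos, fun _ _ _ _ _ h => absurd h (by simp)⟩
  | insert μ₀ S _ ih =>
    obtain ⟨R, hR, a, ha, h⟩ := ih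
    refine ⟨(1 / 2 : ℝ) • R + (1 / 2 : ℝ) • p μ₀, G.conv hR (hp μ₀) (by norm_num) (by norm_num)
      (by norm_num), min a (ω μ₀) / 2, by have := hω μ₀; positivity, fun w hw f hf μ hμ => ?_⟩
    have e0 : f (w - ((1 / 2 : ℝ) • R + (1 / 2 : ℝ) • p μ₀)) = (f (w - R) + f (w - p μ₀)) / 2 := by
      simp only [map_sub, map_add, map_smul, smul_eq_mul]; ring
    have e1 : ∀ q ∈ G.K, 0 ≤ G.D - f (w - q) := fun q hq => by
      linarith [le_norm_of_le_one hf (w - q), G.diam w hw q hq]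
    rw [e0]
    have e2 := e1 R hR
    have e3 := e1 _ (hp μ₀)
    have e4 := e1 _ (hp μ)
    have e5 := hω μ
    rcases Finset.mem_insert.1 hμ with rfl | hμ
    · have := mul_le_mul_of_nonneg_right (min_le_right a (ω μ)) e3
      nlinarith [mul_nonneg e5.le e2]
    · have := mul_le_mul_of_nonneg_right (min_le_left a (ω μ₀)) e4
      nlinarith [mul_nonneg e5.le e3, h w hw f hf μ hμ]

/-- a node of the tree -/
structure Node (G : Ctx X) where
  Ψ : ℕ → X → X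
  ω : ℝ
  c : ℝ
  ω_pos : 0 < ω
  c_nonneg : 0 ≤ c
  maps : ∀ i, MapsTo (Ψ i) G.K G.K
  lip : ∀ i, ∀ u ∈ G.K, ∀ v ∈ G.K, ‖Ψ i u - Ψ i v‖ ≤ ω * ‖u - v‖
  fx : ∀ i, ∀ u ∈ G.K, ∀ w ∈ G.K, ‖Ψ i u - w‖ ≤ (1 - ω) * G.D + ω * ‖u - w‖ + c * ‖G.T w - w‖

/-- the root -/
def root : G.Node where
  Ψ := fun _ u => u
  ω := 1
  c := 0
  ω_pos := one_pos
  c_nonneg := le_rfl
  maps := fun _ _ h => h
  lip := fun _ _ _ _ _ => by simp
  fx := fun _ _ _ _ _ => by simp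

namespace Node

variable {G} (ν : G.Node)

/-- upper point -/
noncomputable def Pp : X := wlim fun i => ν.Ψ i G.o
/-- lower point -/
noncomputable def Pm : X := wlim fun i => ν.Ψ i (G.x i)
/-- the value of a node -/
noncomputable def val : X := ν.ω⁻¹ • (ν.Pp - ν.Pm)
/-- intermediate points -/
noncomputable def Q (β : ℝ) (b : X) : X := wlim fun i => ν.Ψ i ((1 - β) • G.x i + b)

theorem Pp_spec : IsWLim UU (fun i => ν.Ψ i G.o) ν.Pp := G.wlim_spec fun i => ν.maps i G.o_mem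
theorem Pm_spec : IsWLim UU (fun i => ν.Ψ i (G.x i)) ν.Pm :=
  G.wlim_spec fun i => ν.maps i (G.x_mem i)
theorem Pp_mem : ν.Pp ∈ G.K := G.wlim_mem fun i => ν.maps i G.o_mem
theorem Pm_mem : ν.Pm ∈ G.K := G.wlim_mem fun i => ν.maps i (G.x_mem i)

theorem smul_val : ν.ω • ν.val = ν.Pp - ν.Pm := by
  rw [val, smul_smul, mul_inv_cancel₀ ν.ω_pos.ne', one_smul]

theorem apply_val (g : StrongDual ℝ X) : ν.ω * g ν.val = g ν.Pp - g ν.Pm := by
  rw [← map_sub, ← smul_val, map_smul, smul_eq_mul]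

theorem norm_val : ‖ν.val‖ ≤ G.D := by
  have h : ‖ν.Pp - ν.Pm‖ ≤ ν.ω * G.D := ν.Pp_spec.norm_sub_le' ν.Pm_spec fun i =>
    (ν.lip i _ G.o_mem _ (G.x_mem i)).trans
      (mul_le_mul_of_nonneg_left (G.diam _ G.o_mem _ (G.x_mem i)) ν.ω_pos.le)
  rw [← smul_val, norm_smul, Real.norm_of_nonneg ν.ω_pos.le] at h
  exact le_of_mul_le_mul_left h ν.ω_pos

theorem Q_spec {β : ℝ} {b : X} (h : ∀ i, (1 - β) • G.x i + b ∈ G.K) :
    IsWLim UU (fun i => ν.Ψ i ((1 - β) • G.x i + b)) (ν.Q β b) :=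
  G.wlim_spec fun i => ν.maps i (h i)

theorem Q_mem {β : ℝ} {b : X} (h : ∀ i, (1 - β) • G.x i + b ∈ G.K) : ν.Q β b ∈ G.K :=
  G.wlim_mem fun i => ν.maps i (h i)

theorem Q_zero : ν.Q 0 0 = ν.Pm := by simp [Q, Pm]

theorem Q_one {b : X} (hb : b ∈ G.K) : ‖ν.Q 1 b - ν.Pp‖ ≤ ν.ω * ‖b - G.o‖ :=
  (ν.Q_spec (β := 1) (b := b) fun i => by simpa using hb).norm_sub_le' ν.Pp_spec fun i => by
    simpa using ν.lip i _ hb _ G.o_mem

theorem Q_cont : ContinuousOn (fun σ : ℝ × X => ν.Q σ.1 (σ.1 • σ.2)) (Icc 0 1 ×ˢ G.K) := by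
  intro σ hσ
  rw [ContinuousWithinAt, tendsto_iff_norm_sub_tendsto_zero]
  have hc : Continuous fun τ : ℝ × X => ν.ω * (‖τ.1 - σ.1‖ * G.M + ‖τ.1 • τ.2 - σ.1 • σ.2‖) := by
    fun_prop
  have ht := (hc.tendsto σ).mono_left (nhdsWithin_le_nhds (s := Icc 0 1 ×ˢ G.K))
  simp only [sub_self, norm_zero, zero_mul, add_zero, mul_zero] at ht
  refine squeeze_zero' (Eventually.of_forall fun _ => norm_nonneg _) ?_ ht
  filter_upwards [self_mem_nhdsWithin] with τ hτ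
  have h1 := fun i => G.mix_mem hτ.1.1 hτ.1.2 (G.x_mem i) hτ.2
  have h2 := fun i => G.mix_mem hσ.1.1 hσ.1.2 (G.x_mem i) hσ.2
  refine (ν.Q_spec h1).norm_sub_le' (ν.Q_spec h2) fun i =>
    (ν.lip i _ (h1 i) _ (h2 i)).trans (mul_le_mul_of_nonneg_left ?_ ν.ω_pos.le)
  have : (1 - τ.1) • G.x i + τ.1 • τ.2 - ((1 - σ.1) • G.x i + σ.1 • σ.2) =
      (τ.1 • τ.2 - σ.1 • σ.2) - (τ.1 - σ.1) • G.x i := by module
  rw [this]
  have e1 := norm_sub_le (τ.1 • τ.2 - σ.1 • σ.2) ((τ.1 - σ.1) • G.x i)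
  rw [norm_smul] at e1
  have e2 := mul_le_mul_of_nonneg_left (G.bdd _ (G.x_mem i)) (norm_nonneg (τ.1 - σ.1))
  linarith

variable {β a : ℝ} {b w : X}

theorem Q_step (h0 : 0 ≤ β) (ha : 0 ≤ a) (h1 : β + a ≤ 1) (hb : b ∈ G.K) (hw : w ∈ G.K) :
    ‖ν.Q (β + a) (β • b + a • w) - ν.Q β (β • b)‖ ≤ ν.ω * a * G.D := by
  have e1 := fun i => G.mix_mem₂ h0 ha h1 (G.x_mem i) hb hw
  have e2 := fun i => G.mix_mem h0 (by linarith) (G.x_mem i) hb
  refine (ν.Q_spec e1).norm_sub_le' (ν.Q_spec e2) fun i => (ν.lip i _ (e1 i) _ (e2 i)).trans ?_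
  have : (1 - (β + a)) • G.x i + (β • b + a • w) - ((1 - β) • G.x i + β • b) =
      a • (w - G.x i) := by module
  rw [this, norm_smul, Real.norm_of_nonneg ha, mul_assoc]
  have := ν.ω_pos
  gcongr
  exact G.diam _ hw _ (G.x_mem i)

theorem Q_near (h0 : 0 ≤ β) (ha : 0 ≤ a) (h1 : β + a ≤ 1) (hb : b ∈ G.K) (hw : w ∈ G.K) :
    ‖w - ν.Q (β + a) (β • b + a • w)‖ ≤ G.D - ν.ω * a * G.D + ν.c * ‖G.T w - w‖ := by
  have e1 := fun i => G.mix_mem₂ h0 ha h1 (G.x_mem i) hb hw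
  rw [norm_sub_rev]
  refine (ν.Q_spec e1).norm_sub_le' (IsWLim.const _ w) fun i => (ν.fx i _ (e1 i) _ hw).trans ?_
  have e2 := G.mix_dist h0 ha h1 w (G.x_mem i) hb hw
  rw [sub_self, norm_zero] at e2
  have := mul_le_mul_of_nonneg_left e2 ν.ω_pos.le
  nlinarith

theorem child (h0 : 0 ≤ β) (ha : 0 < a) (h1 : β + a ≤ 1) (hb : b ∈ G.K) (hw : w ∈ G.K) {ε : ℝ}
    (hε : 0 < ε) : ∃ ν' : G.Node, ν'.ω = ν.ω * a ∧ ν'.Pm = ν.Q β (β • b) ∧
      ‖ν'.Pp - ν.Q (β + a) (β • b + a • w)‖ ≤ ν.ω * a * ε := by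
  obtain ⟨H, ⟨hH1, hH2, cH, hcH, hH3⟩, hHo⟩ := G.prog _ G.o_mem w hw ε hε
  have hω := ν.ω_pos
  have e1 := fun i {v : X} (hv : v ∈ G.K) => G.mix_mem₂ h0 ha.le h1 (G.x_mem i) hb hv
  have e2 := fun i => G.mix_mem h0 (by linarith) (G.x_mem i) hb
  have hl : ∀ i, ∀ u ∈ G.K, ∀ v ∈ G.K, ‖ν.Ψ i ((1 - (β + a)) • G.x i + (β • b + a • u)) -
      ν.Ψ i ((1 - (β + a)) • G.x i + (β • b + a • v))‖ ≤ ν.ω * a * ‖u - v‖ := by
    intro i u hu v hv
    refine (ν.lip i _ (e1 i hu) _ (e1 i hv)).trans (le_of_eq ?_)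
    have : (1 - (β + a)) • G.x i + (β • b + a • u) - ((1 - (β + a)) • G.x i + (β • b + a • v)) =
        a • (u - v) := by module
    rw [this, norm_smul, Real.norm_of_nonneg ha.le, mul_assoc]
  let ν' : G.Node :=
    { Ψ := fun i u => ν.Ψ i ((1 - (β + a)) • G.x i + (β • b + a • H u))
      ω := ν.ω * a
      c := ν.c + ν.ω * a * cH
      ω_pos := by positivity
      c_nonneg := by have := ν.c_nonneg; positivity
      maps := fun i u hu => ν.maps i (e1 i (hH1 hu))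
      lip := fun i u hu v hv => (hl i _ (hH1 hu) _ (hH1 hv)).trans
        (mul_le_mul_of_nonneg_left (hH2 u hu v hv) (by positivity))
      fx := fun i u hu v hv => by
        refine (ν.fx i _ (e1 i (hH1 hu)) _ hv).trans ?_
        have f1 := G.mix_dist h0 ha.le h1 (H u) (G.x_mem i) hb hv
        have f2 : ‖H u - v‖ ≤ ‖u - v‖ + cH * ‖G.T v - v‖ := by
          have : H u - v = (H u - H v) + (H v - v) := by abel
          rw [this]
          linarith [norm_add_le (H u - H v) (H v - v), hH2 u hu v hv, hH3 v hv]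
        have f3 := mul_le_mul_of_nonneg_left f2 ha.le
        have f4 := mul_le_mul_of_nonneg_left (f1.trans (add_le_add_right f3 _)) hω.le
        nlinarith }
  refine ⟨ν', rfl, ?_, ?_⟩
  · rw [← sub_eq_zero, ← norm_le_zero_iff]
    refine ν'.Pm_spec.norm_sub_le (ν.Q_spec e2) fun δ hδ => ?_
    filter_upwards [G.afp (δ / (ν.ω * a * cH + 1)) (by positivity)] with i hi
    have f1 := hl i _ (hH1 (G.x_mem i)) _ (G.x_mem i)
    have f2 : (1 - (β + a)) • G.x i + (β • b + a • G.x i) = (1 - β) • G.x i + β • b := by module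
    rw [f2] at f1
    refine f1.trans ?_
    calc ν.ω * a * ‖H (G.x i) - G.x i‖ ≤ ν.ω * a * (cH * (δ / (ν.ω * a * cH + 1))) := by
          gcongr
          exact (hH3 _ (G.x_mem i)).trans (by gcongr)
      _ ≤ (ν.ω * a * cH + 1) * (δ / (ν.ω * a * cH + 1)) := by
          rw [← mul_assoc]; gcongr; linarith
      _ = 0 + δ := by field_simp; ring
  · refine ν'.Pp_spec.norm_sub_le' (ν.Q_spec fun i => e1 i hw) fun i => ?_
    refine (hl i _ (hH1 G.o_mem) _ hw).trans ?_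
    gcongr

end Node

end Ctx

end Crest.Agent.R108
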