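import Crest.Agent.R108.Node

/-!
# Row 108: the inductive step and the contradiction
-/

set_option autoImplicit false

open Filter Topology Set Metric

namespace Crest.Agent.R108

variable {X : Type*} [NormedAddCommGroup X] [NormedSpace ℝ X]

namespace Ctx

variable {G : Ctx X}

/-- hull of the past -/
def past (G : Ctx X) (s : Finset ℕ) : Set X := convexHull ℝ (insert G.o (G.x '' s))

theorem past_sub (s : Finset ℕ) : G.past s ⊆ G.K :=
  convexHull_min (insert_subset G.o_mem (by rintro _ ⟨i, -, rfl⟩; exact G.x_mem i)) G.conv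

theorem past_compact (s : Finset ℕ) : IsCompact (G.past s) :=
  ((s.finite_toSet.image G.x).insert G.o).isCompact_convexHull ℝ

theorem strategy (ν : G.Node) {R : X} (hR : R ∈ G.K) {δ : ℝ} (hδ : 0 < δ) (s : Finset ℕ) :
    ∀ᶠ i in UU, ν.c * ‖G.T (G.x i) - G.x i‖ ≤ δ ∧ ∀ β ∈ Icc (0 : ℝ) 1, ∀ b ∈ G.past s,
      G.D - δ ≤ ‖G.x i - ((1 / 2 : ℝ) • ν.Q β (β • b) + (1 / 2 : ℝ) • R)‖ := by
  have hc := ν.c_nonneg
  have hcomp : IsCompact ((fun σ : ℝ × X => (1 / 2 : ℝ) • ν.Q σ.1 (σ.1 • σ.2) + (1 / 2 : ℝ) • R) ''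
      (Icc 0 1 ×ˢ G.past s)) := by
    refine (isCompact_Icc.prod (past_compact s)).image_of_continuousOn ?_
    exact ((ν.Q_cont.mono (prod_mono_right (past_sub s))).const_smul _).add continuousOn_const
  have h2 := G.gk_compact hcomp (by
    rintro _ ⟨σ, hσ, rfl⟩
    exact G.conv (ν.Q_mem fun i => G.mix_mem hσ.1.1 hσ.1.2 (G.x_mem i) (past_sub s hσ.2)) hR
      (by norm_num) (by norm_num) (by norm_num)) hδ
  filter_upwards [G.afp (δ / (ν.c + 1)) (by positivity), h2] with i h1 h3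
  refine ⟨?_, fun β hβ b hb => h3 _ ⟨(β, b), ⟨hβ, hb⟩, rfl⟩⟩
  calc ν.c * ‖G.T (G.x i) - G.x i‖ ≤ (ν.c + 1) * (δ / (ν.c + 1)) := by gcongr; linarith
    _ = δ := by field_simp

theorem step₀ (ν : G.Node) {R : X} (hR : R ∈ G.K) (g : StrongDual ℝ X) {ε δ₀ : ℝ} (hε : 0 < ε)
    (hδ₀ : 0 < δ₀) : ∃ (ν' : G.Node) (w : X) (h : StrongDual ℝ X), w ∈ G.K ∧ ‖h‖ ≤ 1 ∧
      G.D - ε ≤ h ν'.val ∧ G.D - h (w - R) ≤ δ₀ ∧ g ν.val - ε ≤ g ν'.val := by
  classical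
  have hω := ν.ω_pos
  have hD := G.D_pos
  have hg0 := norm_nonneg g
  obtain ⟨ε₁, hε₁, hε₁g, hε₁ε⟩ : ∃ ε₁ > 0, ‖g‖ * ε₁ ≤ ε / 8 ∧ 4 * ε₁ ≤ ε := by
    have h1 : (‖g‖ + 1) * (ε / (8 * (‖g‖ + 1))) = ε / 8 := by field_simp
    have h2 : 0 < ε / (8 * (‖g‖ + 1)) := by positivity
    exact ⟨ε / (8 * (‖g‖ + 1)), h2, by nlinarith, by nlinarith⟩
  obtain ⟨B, hB⟩ : ∃ B, B = 2 * ‖g‖ * G.D + ε / 2 := ⟨_, rfl⟩
  have hB0 : 0 < B := by rw [hB]; positivity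
  obtain ⟨η, hη, hηB⟩ : ∃ η > 0, η * B = ε / 16 := ⟨ε / (16 * B), by positivity, by field_simp⟩
  let δ : ℕ → ℝ := fun j => min (δ₀ / 2) (ν.ω * (η * (1 / 2) ^ j) * ε₁)
  have hδ : ∀ j, 0 < δ j := fun j => lt_min (by positivity) (by positivity)
  obtain ⟨m, N, c, hP, hc0, hc1, happ⟩ := mazur G.refl (fun i => G.bdd _ (G.x_mem i))
    (G.wlim_spec G.x_mem) _ (fun j s => strategy ν hR (hδ j) s) hε₁
  change ‖_ - G.o‖ ≤ ε₁ at happ
  let β : ℕ → ℝ := fun j => ∑ l ∈ Finset.range j, c l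
  let b : ℕ → X := fun j => ∑ l ∈ Finset.range j, c l • G.x (m l)
  have hβ0 : ∀ j, 0 ≤ β j := fun j => Finset.sum_nonneg fun l _ => hc0 l
  have hβs : ∀ j, β (j + 1) = β j + c j := fun j => Finset.sum_range_succ _ _
  have hbs : ∀ j, b (j + 1) = b j + c j • G.x (m j) := fun j => Finset.sum_range_succ _ _
  have hβ1 : ∀ j ≤ N, β j ≤ 1 := fun j hj => hc1 ▸ Finset.sum_le_sum_of_subset_of_nonneg
    (Finset.range_subset_range.2 hj) fun l _ _ => hc0 l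
  have hb : ∀ j, ∃ b' ∈ G.past ((Finset.range j).image m), b j = β j • b' := fun j =>
    cone_sum (convex_convexHull ℝ _) (subset_convexHull ℝ _ (mem_insert _ _)) hc0 j fun l hl =>
      subset_convexHull ℝ _ (mem_insert_of_mem _ ⟨m l, by
        simpa using ⟨l, hl, rfl⟩, rfl⟩)
  choose b' hb'1 hb'2 using hb
  have hb'K : ∀ j, b' j ∈ G.K := fun j => past_sub _ (hb'1 j)
  let q : ℕ → X := fun j => ν.Q (β j) (b j)
  have hq : ∀ j, q j = ν.Q (β j) (β j • b' j) := fun j => by rw [← hb'2]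
  have hqs : ∀ j, q (j + 1) = ν.Q (β j + c j) (β j • b' j + c j • G.x (m j)) := fun j => by
    rw [← hb'2, ← hβs, ← hbs]
  have hβc : ∀ j < N, β j + c j ≤ 1 := fun j hj => hβs j ▸ hβ1 (j + 1) hj
  have hq0 : q 0 = ν.Pm := by
    rw [← ν.Q_zero]; simp [q, β, b]
  have hqN : ‖q N - ν.Pp‖ ≤ ν.ω * ε₁ := by
    have e1 : β N = 1 := hc1
    have e2 : b N ∈ G.K := by rw [hb'2, e1, one_smul]; exact hb'K N
    have e3 : q N = ν.Q 1 (b N) := by rw [← e1]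
    rw [e3]
    exact (ν.Q_one e2).trans (mul_le_mul_of_nonneg_left happ hω.le)
  have hgv := abs_le.1 (abs_apply_le g ν.norm_val)
  obtain ⟨j, hj, hcj, hsj⟩ := pigeon (N := N) (c := c)
    (s := fun j => (g (q (j + 1)) - g (q j)) - ν.ω * (g ν.val - ε / 2) * c j) (B := ν.ω * B) hη
    (by positivity) (fun j hj => by
      have e1 := ν.Q_step (hβ0 j) (hc0 j) (hβc j hj) (hb'K j) (G.x_mem (m j))
      rw [← hq, ← hqs] at e1
      have e2 := (abs_le.1 (abs_apply_le g e1)).2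
      rw [map_sub] at e2
      have e3 := mul_le_mul_of_nonneg_left hgv.1 (mul_nonneg hω.le (hc0 j))
      rw [hB]
      nlinarith) (by
      rw [Finset.sum_sub_distrib, Finset.sum_range_sub (fun j => g (q j)), ← Finset.mul_sum, hc1, hq0]
      have e1 := (abs_le.1 (abs_apply_le g hqN)).1
      rw [map_sub] at e1
      have e2 := ν.apply_val g
      have e3 := mul_le_mul_of_nonneg_left hε₁g hω.le
      have e4 : 2 * η * (ν.ω * B) = ν.ω * ε / 8 := by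
        rw [show 2 * η * (ν.ω * B) = 2 * ν.ω * (η * B) by ring, hηB]; ring
      have e5 := mul_pos hω hε
      rw [e4]
      nlinarith)
  have hcpos : 0 < c j := lt_of_lt_of_le (by positivity) hcj
  obtain ⟨ν', hω', hPm, hPp⟩ := ν.child (hβ0 j) hcpos (hβc j hj) (hb'K j) (G.x_mem (m j)) hε₁
  rw [← hq] at hPm
  rw [← hqs, ← hω'] at hPp
  obtain ⟨hP1, hP2⟩ := hP j
  have hfar := hP2 (β j) ⟨hβ0 j, hβ1 j hj.le⟩ (b' j) (hb'1 j)
  rw [← hq] at hfar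
  obtain ⟨h, hh1, hh2⟩ := exists_dual_vector'' ℝ
    (G.x (m j) - ((1 / 2 : ℝ) • q j + (1 / 2 : ℝ) • R))
  have hqK : q j ∈ G.K := by
    rw [hq]; exact ν.Q_mem fun i => G.mix_mem (hβ0 j) (hβ1 j hj.le) (G.x_mem i) (hb'K j)
  have e0 : h (G.x (m j) - ((1 / 2 : ℝ) • q j + (1 / 2 : ℝ) • R)) =
      (h (G.x (m j) - q j) + h (G.x (m j) - R)) / 2 := by
    simp only [map_sub, map_add, map_smul, smul_eq_mul]; ring
  have e1 := (le_norm_of_le_one hh1 _).trans (G.diam _ (G.x_mem (m j)) _ hqK)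
  have e2 := (le_norm_of_le_one hh1 _).trans (G.diam _ (G.x_mem (m j)) _ hR)
  have e3 : G.D - δ j ≤ (h (G.x (m j) - q j) + h (G.x (m j) - R)) / 2 := by
    rw [← e0, hh2]; exact hfar
  have d1 : δ j ≤ δ₀ / 2 := min_le_left _ _
  have d2 : δ j ≤ ν'.ω * ε₁ := (min_le_right _ _).trans (by rw [hω']; gcongr)
  have hω'0 := ν'.ω_pos
  refine ⟨ν', G.x (m j), h, G.x_mem _, hh1, ?_, by linarith, ?_⟩
  · have f1 := ν.Q_near (hβ0 j) (hc0 j) (hβc j hj) (hb'K j) (G.x_mem (m j))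
    rw [← hqs, ← hω'] at f1
    have f2 := (le_norm_of_le_one hh1 _).trans f1
    have f3 := le_norm_of_le_one hh1 (q (j + 1) - ν'.Pp)
    rw [norm_sub_rev] at f3
    have f4 := ν'.apply_val h
    rw [hPm] at f4
    simp only [map_sub] at e1 e2 e3 f2 f3
    have f5 := mul_le_mul_of_nonneg_left hε₁ε hω'0.le
    refine le_of_mul_le_mul_left ?_ hω'0
    nlinarith
  · have f1 := (abs_le.1 (abs_apply_le g hPp)).1
    have f2 := ν'.apply_val g
    rw [hPm] at f2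
    rw [map_sub] at f1
    have f3 := mul_le_mul_of_nonneg_left hε₁g hω'0.le
    have f4 : ν.ω * (g ν.val - ε / 2) * c j = ν'.ω * (g ν.val - ε / 2) := by rw [hω']; ring
    have f5 := mul_pos hω'0 hε
    simp only [f4] at hsj
    refine le_of_mul_le_mul_left ?_ hω'0
    nlinarith

theorem step (ν : G.Node) (S : Finset G.Node) (g : StrongDual ℝ X) (ε : ℝ) (hε : 0 < ε) :
    ∃ (ν' : G.Node) (h : StrongDual ℝ X), ‖h‖ ≤ 1 ∧ G.D - ε ≤ h ν'.val ∧
      (∀ μ ∈ S, h μ.val ≤ ε) ∧ g ν.val - ε ≤ g ν'.val := by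
  obtain ⟨R, hR, a, ha, havg⟩ := G.avg S (fun μ => μ.Pp) (fun μ => μ.Pp_mem) (fun μ => μ.ω)
    fun μ => μ.ω_pos
  obtain ⟨ν', w, h, hw, h1, h2, h3, h4⟩ := step₀ ν hR g hε (mul_pos ha hε)
  refine ⟨ν', h, h1, h2, fun μ hμ => ?_, h4⟩
  have e1 := havg w hw h h1 μ hμ
  have e2 := (le_norm_of_le_one h1 _).trans (G.diam _ hw _ μ.Pm_mem)
  have e3 := μ.apply_val h
  have e4 := mul_le_mul_of_nonneg_left h3 μ.ω_pos.le
  have e5 : a * (G.D - h (w - μ.Pp)) ≤ a * (μ.ω * ε) := by nlinarith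
  have e6 := le_of_mul_le_mul_left e5 ha
  simp only [map_sub] at e2 e6
  refine le_of_mul_le_mul_left ?_ μ.ω_pos
  linarith

theorem false (G : Ctx X) : False :=
  tree G.refl G.root Node.val G.D_pos Node.norm_val step

end Ctx

end Crest.Agent.R108
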