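import Mathlib

/-!
# Row 108: weak ultralimits, a James-type lemma and an adaptive Mazur lemma
-/

set_option autoImplicit false

open Filter Topology Set Metric

namespace Crest.Agent.R108

variable {X : Type*} [NormedAddCommGroup X] [NormedSpace ℝ X]

/-- reflexivity -/
def Refl (X : Type*) [NormedAddCommGroup X] [NormedSpace ℝ X] : Prop :=
  Function.Surjective (NormedSpace.inclusionInDoubleDual ℝ X)

/-- `z` is the weak limit of `f` along `l`. -/
def IsWLim {ι : Type*} (l : Filter ι) (f : ι → X) (z : X) : Prop :=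
  ∀ φ : StrongDual ℝ X, Tendsto (fun i => φ (f i)) l (𝓝 (φ z))

theorem le_norm_of_le_one {φ : StrongDual ℝ X} (h : ‖φ‖ ≤ 1) (v : X) : φ v ≤ ‖v‖ := by
  have h1 := φ.le_opNorm v
  have h2 : φ v ≤ ‖φ v‖ := Real.le_norm_self _
  nlinarith [norm_nonneg v]

theorem abs_apply_le (φ : StrongDual ℝ X) {v : X} {r : ℝ} (h : ‖v‖ ≤ r) : |φ v| ≤ ‖φ‖ * r :=
  (φ.le_opNorm v).trans (mul_le_mul_of_nonneg_left h (norm_nonneg _))

theorem exists_wlim (hX : Refl X) {ι : Type*} (U : Ultrafilter ι) (f : ι → X) (M : ℝ)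
    (hf : ∀ᶠ i in (U : Filter ι), ‖f i‖ ≤ M) : ∃ z, IsWLim (U : Filter ι) f z := by
  have h1 : ∀ φ : StrongDual ℝ X, ∃ r : ℝ, |r| ≤ M * ‖φ‖ ∧
      Tendsto (fun i => φ (f i)) (U : Filter ι) (𝓝 r) := by
    intro φ
    have hle : ((U.map fun i => φ (f i) : Ultrafilter ℝ) : Filter ℝ) ≤
        𝓟 (Icc (-(M * ‖φ‖)) (M * ‖φ‖)) := by
      rw [Ultrafilter.coe_map, le_principal_iff, mem_map]
      filter_upwards [hf] with i hi
      have := abs_apply_le φ hi
      rw [mul_comm] at this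
      exact abs_le.1 this
    obtain ⟨r, hr, hr2⟩ := isCompact_Icc.ultrafilter_le_nhds _ hle
    exact ⟨r, abs_le.2 hr, hr2⟩
  choose L hL hT using h1
  let Λ : StrongDual ℝ X →ₗ[ℝ] ℝ :=
    { toFun := L
      map_add' := fun φ ψ => by
        have := (hT φ).add (hT ψ)
        exact tendsto_nhds_unique (hT (φ + ψ)) (by simpa using this)
      map_smul' := fun c φ => by
        have := (hT φ).const_mul c
        exact tendsto_nhds_unique (hT (c • φ)) (by simpa using this) }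
  obtain ⟨z, hz⟩ := hX (Λ.mkContinuous M fun φ => hL φ)
  refine ⟨z, fun φ => ?_⟩
  have : φ z = L φ := by
    have := congrArg (fun Θ : StrongDual ℝ (StrongDual ℝ X) => Θ φ) hz
    exact this
  rw [this]; exact hT φ

theorem IsWLim.mem {ι : Type*} {l : Filter ι} [l.NeBot] {f : ι → X} {z : X} (h : IsWLim l f z)
    {A : Set X} (hA : Convex ℝ A) (hc : IsClosed A) (hf : ∀ᶠ i in l, f i ∈ A) : z ∈ A := by
  by_contra hz
  obtain ⟨φ, u, h1, h2⟩ := geometric_hahn_banach_point_closed hA hc hz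
  have : u ≤ φ z := ge_of_tendsto (h φ) (hf.mono fun i hi => (h2 _ hi).le)
  linarith

theorem IsWLim.const {ι : Type*} (l : Filter ι) (z : X) : IsWLim l (fun _ => z) z :=
  fun _ => tendsto_const_nhds

theorem IsWLim.norm_sub_le {ι : Type*} {l : Filter ι} [l.NeBot] {f g : ι → X} {z w : X}
    (hf : IsWLim l f z) (hg : IsWLim l g w) {r : ℝ}
    (h : ∀ δ > 0, ∀ᶠ i in l, ‖f i - g i‖ ≤ r + δ) : ‖z - w‖ ≤ r := by
  obtain ⟨φ, h1, h2⟩ := exists_dual_vector'' ℝ (z - w)
  refine le_of_forall_pos_le_add fun δ hδ => ?_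
  have ht := (hf φ).sub (hg φ)
  have : φ z - φ w ≤ r + δ := le_of_tendsto ht ((h δ hδ).mono fun i hi => by
    rw [← map_sub]; exact (le_norm_of_le_one h1 _).trans hi)
  rw [← map_sub, h2] at this
  exact this

theorem IsWLim.norm_sub_le' {ι : Type*} {l : Filter ι} [l.NeBot] {f g : ι → X} {z w : X}
    (hf : IsWLim l f z) (hg : IsWLim l g w) {r : ℝ}
    (h : ∀ i, ‖f i - g i‖ ≤ r) : ‖z - w‖ ≤ r :=
  hf.norm_sub_le hg fun δ hδ => Eventually.of_forall fun i => by linarith [h i]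

/-- the ultrafilter used throughout -/
noncomputable abbrev UU : Filter ℕ := (hyperfilter ℕ : Filter ℕ)

theorem UU_le : UU ≤ atTop := by
  rw [← Nat.cofinite_eq_atTop]; exact hyperfilter_le_cofinite

/-- the chosen weak ultralimit -/
noncomputable def wlim (f : ℕ → X) : X := Classical.epsilon (IsWLim UU f)

theorem wlim_spec (hX : Refl X) {f : ℕ → X} {M : ℝ} (hf : ∀ i, ‖f i‖ ≤ M) :
    IsWLim UU f (wlim f) :=
  Classical.epsilon_spec (exists_wlim hX (hyperfilter ℕ) f M (Eventually.of_forall hf))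

/-- James-type lemma. -/
theorem james (hX : Refl X) (y : ℕ → X) (M : ℝ) (hy : ∀ m, ‖y m‖ ≤ M) (f : ℕ → StrongDual ℝ X)
    (hf : ∀ l, ‖f l‖ ≤ 1) {a b : ℝ} (hab : b < a) (h1 : ∀ l m, m ≤ l → a ≤ f l (y m))
    (h2 : ∀ l m, l < m → f l (y m) ≤ b) : False := by
  have hz := wlim_spec hX hy
  set z := wlim y
  have hb : ∀ l, f l z ≤ b := fun l =>
    le_of_tendsto (hz (f l)) (UU_le ((eventually_gt_atTop l).mono fun m hm => h2 l m hm))
  let A : Set X := {v | ∀ᶠ l in atTop, a ≤ f l v}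
  have hA : Convex ℝ A := by
    intro v hv w hw s t hs ht hst
    filter_upwards [hv, hw] with l h3 h4
    rw [map_add, map_smul, map_smul, smul_eq_mul, smul_eq_mul]
    have : a = s * a + t * a := by rw [← add_mul, hst, one_mul]
    nlinarith [mul_le_mul_of_nonneg_left h3 hs, mul_le_mul_of_nonneg_left h4 ht]
  have hzA : z ∈ closure A := hz.mem hA.closure isClosed_closure
    (Eventually.of_forall fun m => subset_closure ((eventually_ge_atTop m).mono fun l hl => h1 l m hl))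
  obtain ⟨v, hv, hd⟩ := Metric.mem_closure_iff.1 hzA (a - b) (by linarith)
  obtain ⟨l, hl⟩ := hv.exists
  have h3 := le_norm_of_le_one (hf l) (v - z)
  rw [map_sub] at h3
  rw [dist_comm, dist_eq_norm] at hd
  linarith [hb l]

theorem exists_sep {t : Set X} (ht : Convex ℝ t) {o : X} {ε : ℝ} (hε : 0 < ε)
    (h : ∀ b ∈ t, ε < ‖b - o‖) : ∃ f : StrongDual ℝ X, ‖f‖ ≤ 1 ∧ ∀ b ∈ t, ε ≤ f (b - o) := by
  rcases t.eq_empty_or_nonempty with rfl | ⟨b₀, hb₀⟩
  · exact ⟨0, by simp, by simp⟩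
  obtain ⟨f, u, h1, h2⟩ := geometric_hahn_banach_open (convex_ball o ε) isOpen_ball ht
    (Set.disjoint_left.2 fun b hb hbt => by
      have := h b hbt
      rw [mem_ball, dist_eq_norm] at hb
      linarith)
  have hu : 0 < u - f o := by linarith [h1 o (mem_ball_self hε)]
  have hn : ‖f‖ ≤ (u - f o) / ε := by
    by_contra hlt
    obtain ⟨v, hv, hr⟩ := f.exists_lt_apply_of_lt_opNorm (not_le.1 hlt)
    have hεv : ‖ε • v‖ < ε := by
      rw [norm_smul, Real.norm_of_nonneg hε.le]; nlinarith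
    have h3 := h1 (o + ε • v) (by simpa [mem_ball, dist_eq_norm] using hεv)
    have h4 := h1 (o - ε • v) (by simpa [mem_ball, dist_eq_norm] using hεv)
    rw [map_add, map_smul, smul_eq_mul] at h3
    rw [map_sub, map_smul, smul_eq_mul] at h4
    rw [div_lt_iff₀ hε, Real.norm_eq_abs] at hr
    rcases abs_cases (f v) with h5 | h5 <;> rw [h5.1] at hr <;> nlinarith
  refine ⟨(ε / (u - f o)) • f, ?_, fun b hb => ?_⟩
  · rw [norm_smul, Real.norm_of_nonneg (by positivity)]
    calc ε / (u - f o) * ‖f‖ ≤ ε / (u - f o) * ((u - f o) / ε) := by gcongr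
      _ = 1 := by field_simp
  · rw [smul_apply, smul_eq_mul, map_sub]
    have := h2 b hb
    calc ε = ε / (u - f o) * (u - f o) := by field_simp
      _ ≤ _ := by gcongr

/-- Adaptive Mazur lemma: the indices are chosen one after the other in sets of the filter that
depend on the past. -/
theorem mazur (hX : Refl X) {x : ℕ → X} {M : ℝ} (hM : ∀ i, ‖x i‖ ≤ M) {o : X}
    (ho : IsWLim UU x o) (P : ℕ → Finset ℕ → ℕ → Prop) (hP : ∀ j s, ∀ᶠ i in UU, P j s i)
    {ε : ℝ} (hε : 0 < ε) :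
    ∃ (m : ℕ → ℕ) (N : ℕ) (c : ℕ → ℝ), (∀ j, P j ((Finset.range j).image m) (m j)) ∧
      (∀ j, 0 ≤ c j) ∧ ∑ j ∈ Finset.range N, c j = 1 ∧
      ‖∑ j ∈ Finset.range N, c j • x (m j) - o‖ ≤ ε := by
  classical
  have hF : ∀ t : Finset ℕ, ∃ f : StrongDual ℝ X, ‖f‖ ≤ 1 ∧
      ((∃ g : StrongDual ℝ X, ‖g‖ ≤ 1 ∧ ∀ i ∈ t, ε ≤ g (x i - o)) → ∀ i ∈ t, ε ≤ f (x i - o)) := by
    intro t
    by_cases h : ∃ g : StrongDual ℝ X, ‖g‖ ≤ 1 ∧ ∀ i ∈ t, ε ≤ g (x i - o)
    · obtain ⟨g, hg, hg2⟩ := h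
      exact ⟨g, hg, fun _ => hg2⟩
    · exact ⟨0, by simp, fun h' => absurd h' h⟩
  choose F hF1 hF2 using hF
  have hnext : ∀ (j : ℕ) (s : Finset ℕ), ∃ i, P j s i ∧ ∀ t ∈ s.powerset, F t (x i - o) ≤ ε / 2 := by
    intro j s
    refine ((hP j s).and ?_).exists
    rw [Filter.eventually_all_finset]
    intro t _
    have := (ho (F t)).sub_const (F t o)
    rw [sub_self] at this
    filter_upwards [this.eventually (gt_mem_nhds (half_pos hε))] with i hi
    rw [map_sub]; exact hi.le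
  choose nx hnx1 hnx2 using hnext
  let s : ℕ → Finset ℕ := fun j => Nat.rec ∅ (fun j t => insert (nx j t) t) j
  let m : ℕ → ℕ := fun j => nx j (s j)
  have hs : ∀ j, s j = (Finset.range j).image m := by
    intro j
    induction j with
    | zero => simp [s]
    | succ j ih =>
      rw [Finset.range_add_one, Finset.image_insert, ← ih]
  by_contra hcon
  have hsep : ∀ l, ∃ g : StrongDual ℝ X, ‖g‖ ≤ 1 ∧ ∀ i ∈ s (l + 1), ε ≤ g (x i - o) := by
    intro l
    let t : Set X := {v | ∃ c : ℕ → ℝ, (∀ j, 0 ≤ c j) ∧ ∑ j ∈ Finset.range (l + 1), c j = 1 ∧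
      ∑ j ∈ Finset.range (l + 1), c j • x (m j) = v}
    have ht : Convex ℝ t := by
      rintro _ ⟨c, hc0, hc1, rfl⟩ _ ⟨d, hd0, hd1, rfl⟩ a b ha hb hab
      refine ⟨fun j => a * c j + b * d j, fun j => by have := hc0 j; have := hd0 j; positivity, ?_, ?_⟩
      · rw [Finset.sum_add_distrib, ← Finset.mul_sum, ← Finset.mul_sum, hc1, hd1]; linarith
      · simp only [add_smul, mul_smul, Finset.sum_add_distrib, Finset.smul_sum]
    obtain ⟨g, hg1, hg2⟩ := exists_sep ht (o := o) hε (by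
      rintro _ ⟨c, hc0, hc1, rfl⟩
      by_contra hle
      exact hcon ⟨m, l + 1, c, fun j => hs j ▸ hnx1 j (s j), hc0, hc1, not_lt.1 hle⟩)
    refine ⟨g, hg1, fun i hi => hg2 _ ?_⟩
    rw [hs (l + 1), Finset.mem_image] at hi
    obtain ⟨j, hj, rfl⟩ := hi
    refine ⟨fun k => if k = j then 1 else 0, fun k => by dsimp only; split_ifs <;> norm_num, ?_, ?_⟩
    · simp [Finset.sum_ite_eq', hj]
    · simp [ite_smul, Finset.sum_ite_eq', hj]
  refine james hX (fun j => x (m j) - o) (M + ‖o‖) (fun j => ?_) (fun l => F (s (l + 1)))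
    (fun l => hF1 _) (half_lt_self hε) (fun l j hj => ?_) (fun l j hj => ?_)
  · exact (norm_sub_le _ _).trans (by linarith [hM (m j)])
  · refine hF2 _ (hsep l) _ ?_
    rw [hs (l + 1)]; exact Finset.mem_image_of_mem _ (Finset.mem_range.2 (by omega))
  · refine hnx2 j (s j) _ (Finset.mem_powerset.2 ?_)
    rw [hs (l + 1), hs j]
    exact Finset.image_subset_image (Finset.range_subset_range.2 (by omega))

/-- The abstract tree argument. -/
theorem tree (hX : Refl X) {N : Type*} (ν₀ : N) (val : N → X) {D : ℝ} (hD : 0 < D)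
    (hval : ∀ ν, ‖val ν‖ ≤ D)
    (step : ∀ (ν : N) (S : Finset N) (g : StrongDual ℝ X) (ε : ℝ), 0 < ε →
      ∃ (ν' : N) (h : StrongDual ℝ X), ‖h‖ ≤ 1 ∧ D - ε ≤ h (val ν') ∧
        (∀ μ ∈ S, h (val μ) ≤ ε) ∧ g (val ν) - ε ≤ g (val ν')) : False := by
  classical
  have hε : ∀ n : ℕ, 0 < D / 16 * (1 / 2) ^ n := fun n => by positivity
  choose nx hf h1 h2 h3 h4 using fun (n : ℕ) (σ : N × Finset N × StrongDual ℝ X) =>
    step σ.1 σ.2.1 σ.2.2 _ (hε n)
  let σ : ℕ → N × Finset N × StrongDual ℝ X := fun n =>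
    Nat.rec (ν₀, {ν₀}, 0) (fun n t => (nx n t, insert (nx n t) t.2.1, t.2.2 + hf n t)) n
  let y : ℕ → X := fun n => val (σ n).1
  let h : ℕ → StrongDual ℝ X := fun n => hf n (σ n)
  have hS : ∀ n m, m ≤ n → (σ m).1 ∈ (σ n).2.1 := by
    intro n
    induction n with
    | zero => intro m hm; obtain rfl : m = 0 := by omega
              simp [σ]
    | succ n ih =>
      intro m hm
      rcases hm.lt_or_eq with hm | rfl
      · exact Finset.mem_insert_of_mem (ih m (by omega))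
      · exact Finset.mem_insert_self _ _
  have hg : ∀ n, (σ n).2.2 = ∑ k ∈ Finset.range n, h k := by
    intro n
    induction n with
    | zero => simp [σ]
    | succ n ih => rw [Finset.sum_range_succ, ← ih]
  have hinv : ∀ n : ℕ, n * D - (σ n).2.2 (y n) ≤ D / 4 - D / 4 * (1 / 2) ^ n := by
    intro n
    induction n with
    | zero => simp [σ]
    | succ n ih =>
      have e1 : (σ (n + 1)).2.2 (y (n + 1)) = (σ n).2.2 (y (n + 1)) + h n (y (n + 1)) := rfl
      have e2 : D - D / 16 * (1 / 2) ^ n ≤ h n (y (n + 1)) := h2 n (σ n)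
      have e3 : (σ n).2.2 (y n) - D / 16 * (1 / 2) ^ n ≤ (σ n).2.2 (y (n + 1)) := h4 n (σ n)
      rw [e1, pow_succ]
      push_cast
      linarith
  refine james hX y D (fun m => hval _) (fun l => -h l) (fun l => by rw [norm_neg]; exact h1 _ _)
    (a := -(D / 4)) (b := -(3 * D / 4)) (by linarith) (fun l m hm => ?_) (fun l m hm => ?_)
  · have e1 : h l (y m) ≤ D / 16 * (1 / 2) ^ l := h3 l (σ l) _ (hS l m hm)
    have e2 : ((1 : ℝ) / 2) ^ l ≤ 1 := pow_le_one₀ (by norm_num) (by norm_num)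
    have : (-h l) (y m) = -(h l (y m)) := rfl
    rw [this]
    nlinarith
  · have e1 := hinv m
    have e2 : D - h l (y m) ≤ ∑ k ∈ Finset.range m, (D - h k (y m)) :=
      Finset.single_le_sum (f := fun k => D - h k (y m)) (fun k _ => by
        have := le_norm_of_le_one (h1 k (σ k)) (y m)
        have := hval (σ m).1
        change 0 ≤ D - hf k (σ k) (y m)
        change ‖y m‖ ≤ D at this
        linarith) (Finset.mem_range.2 hm)
    rw [Finset.sum_sub_distrib, Finset.sum_const, Finset.card_range, nsmul_eq_mul] at e2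
    rw [hg, sum_apply] at e1
    have : (-h l) (y m) = -(h l (y m)) := rfl
    rw [this]
    have := hε m
    nlinarith

end Crest.Agent.R108
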